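import Crest.Agent.R193.B.Ad

/-! R193/Q/Abs (helper79): ultralimits of equicontinuous, uniformly injective, proper maps to the plane. -/

set_option autoImplicit false
open Set Metric Filter Topology

namespace Crest.Agent.R193

variable {Z : Type} [MetricSpace Z] [CompactSpace Z]

theorem q_lim {b : Z} {ψ : ℕ → Z → ℂ} {good : ℕ → Z → Prop}
    (A1 : ∀ σ : ℝ, 0 < σ → ∃ M : ℝ, ∀ᶠ n in 𝒰, ∀ y, σ ≤ dist y b → good n y ∧ ‖ψ n y‖ ≤ M)
    (A2 : ∀ σ ε : ℝ, 0 < σ → 0 < ε → ∃ δ : ℝ, 0 < δ ∧ ∀ᶠ n in 𝒰, ∀ y z, σ ≤ dist y b → σ ≤ dist z b →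
      dist y z ≤ δ → ‖ψ n y - ψ n z‖ ≤ ε)
    (A3 : ∀ σ δ : ℝ, 0 < σ → 0 < δ → ∃ η : ℝ, 0 < η ∧ ∀ᶠ n in 𝒰, ∀ y z, σ ≤ dist y b → σ ≤ dist z b →
      δ ≤ dist y z → η ≤ ‖ψ n y - ψ n z‖)
    (A4 : ∀ M : ℝ, ∃ σ : ℝ, 0 < σ ∧ ∀ᶠ n in 𝒰, ∀ y, good n y → ‖ψ n y‖ ≤ M → σ ≤ dist y b)
    (A5 : ∀ ζ : ℂ, ∀ᶠ n in 𝒰, ∃ y, good n y ∧ ψ n y = ζ) :
    ∃ Φ : Z ≃ₜ OnePoint ℂ, Φ b = OnePoint.infty ∧ ∀ σ ε : ℝ, 0 < σ → 0 < ε →
      ∀ᶠ n in 𝒰, ∀ y, σ ≤ dist y b → ‖ψ n y - cx (Φ y)‖ ≤ ε := by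
  classical
  have h1 : ∀ y, ∃ l : ℂ, y ≠ b → Tendsto (fun n => ψ n y) 𝒰 (𝓝 l) := fun y => by
    by_cases hy : y = b
    · exact ⟨0, fun h => (h hy).elim⟩
    obtain ⟨M, hM⟩ := A1 _ (dist_pos.2 hy)
    obtain ⟨l, -, hl⟩ := (isCompact_closedBall (0 : ℂ) M).ultrafilter_le_nhds ((hyperfilter ℕ).map fun n => ψ n y)
      (le_principal_iff.2 (hM.mono fun n hn => mem_closedBall_zero_iff.2 (hn y le_rfl).2))
    exact ⟨l, fun _ => hl⟩
  choose l hl using h1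
  have ne : ∀ {σ : ℝ} {y : Z}, 0 < σ → σ ≤ dist y b → y ≠ b := fun h1 h2 => dist_pos.1 (h1.trans_le h2)
  have B2 : ∀ σ ε : ℝ, 0 < σ → 0 < ε → ∃ δ : ℝ, 0 < δ ∧ (∀ᶠ n in 𝒰, ∀ y z, σ ≤ dist y b → σ ≤ dist z b →
      dist y z ≤ δ → ‖ψ n y - ψ n z‖ ≤ ε) ∧ ∀ y z, σ ≤ dist y b → σ ≤ dist z b → dist y z ≤ δ → ‖l y - l z‖ ≤ ε :=
    fun σ ε hσ hε => (A2 σ ε hσ hε).imp fun δ h => ⟨h.1, h.2, fun y z hy hz hd =>
      le_of_tendsto ((hl y (ne hσ hy)).sub (hl z (ne hσ hz))).norm (h.2.mono fun n hn => hn y z hy hz hd)⟩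
  have B4 : ∀ M : ℝ, ∃ σ : ℝ, 0 < σ ∧ ∀ y, y ≠ b → ‖l y‖ < M → σ ≤ dist y b := fun M =>
    (A4 M).imp fun σ h => ⟨h.1, fun y hy hM => by
      obtain ⟨M', h1⟩ := A1 _ (dist_pos.2 hy)
      obtain ⟨n, a1, a2, a3⟩ := (h.2.and (h1.and ((hl y hy).norm.eventually (gt_mem_nhds hM)))).exists
      exact a1 y (a2 y le_rfl).1 a3.le⟩
  set F : Z → OnePoint ℂ := fun y => if y = b then OnePoint.infty else (l y : OnePoint ℂ) with hF
  have Fb : F b = OnePoint.infty := if_pos rfl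
  have Fn : ∀ y, y ≠ b → F y = l y := fun y hy => if_neg hy
  have hc : Continuous F := continuous_iff_continuousAt.2 fun y => by
    by_cases hy : y = b
    · rw [hy, ContinuousAt, Fb, OnePoint.hasBasis_nhds_infty.tendsto_right_iff]
      rintro s ⟨-, hs⟩
      obtain ⟨M, hM⟩ := hs.isBounded.subset_ball 0
      obtain ⟨σ, hσ, h⟩ := B4 M
      filter_upwards [ball_mem_nhds b hσ] with z hz
      by_cases e : z = b
      · rw [e, Fb]; exact Or.inr rfl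
      · rw [Fn z e]
        exact Or.inl ⟨_, fun hs' => (h z e (mem_ball_zero_iff.1 (hM hs'))).not_gt hz, rfl⟩
    · have hσ := half_pos (dist_pos.2 hy)
      have h2 : ContinuousAt l y := Metric.continuousAt_iff.2 fun ε hε => by
        obtain ⟨δ, hδ, -, h⟩ := B2 _ _ hσ (half_pos hε)
        refine ⟨min δ (dist y b / 2), lt_min hδ hσ, fun z hz => ?_⟩
        rw [dist_eq_norm]
        refine (h z y ?_ (half_le_self dist_nonneg) (hz.le.trans (min_le_left _ _))).trans_lt (half_lt_self hε)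
        linarith [dist_triangle_left y b z, hz.trans_le (min_le_right _ _)]
      exact (OnePoint.continuous_coe.continuousAt.comp h2).congr
        ((isOpen_ne.eventually_mem hy).mono fun z hz => (Fn z hz).symm)
  have hi : Function.Injective F := fun y z e => by
    by_cases hy : y = b <;> by_cases hz : z = b
    · rw [hy, hz]
    · rw [hy, Fb, Fn z hz] at e; exact absurd e (OnePoint.infty_ne_coe _)
    · rw [hz, Fb, Fn y hy] at e; exact absurd e (OnePoint.coe_ne_infty _)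
    rw [Fn y hy, Fn z hz, OnePoint.coe_eq_coe] at e
    by_contra hyz
    obtain ⟨η, hη, h⟩ := A3 _ _ (lt_min (dist_pos.2 hy) (dist_pos.2 hz)) (dist_pos.2 hyz)
    have := ge_of_tendsto ((hl y hy).sub (hl z hz)).norm
      (h.mono fun n hn => hn y z (min_le_left _ _) (min_le_right _ _) le_rfl)
    rw [e, sub_self, norm_zero] at this
    exact this.not_gt hη
  have hs : Function.Surjective F := fun p => by
    induction p using OnePoint.rec with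
    | infty => exact ⟨b, Fb⟩
    | coe ζ =>
      have h1 : ∀ n, ∃ y, (∃ y, good n y ∧ ψ n y = ζ) → good n y ∧ ψ n y = ζ := fun n => by
        by_cases h : ∃ y, good n y ∧ ψ n y = ζ
        · exact h.imp fun _ h _ => h
        · exact ⟨b, fun h' => (h h').elim⟩
      choose v hv using h1
      obtain ⟨σ, hσ, h2⟩ := A4 ‖ζ‖
      have h3 : ∀ᶠ n in 𝒰, ψ n (v n) = ζ ∧ σ ≤ dist (v n) b := by
        filter_upwards [A5 ζ, h2] with n a1 a2
        exact ⟨(hv n a1).2, a2 _ (hv n a1).1 (congrArg norm (hv n a1).2).le⟩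
      obtain ⟨y, -, hy⟩ := isCompact_univ.ultrafilter_le_nhds ((hyperfilter ℕ).map v) (by simp)
      have hy' : Tendsto v 𝒰 (𝓝 y) := hy
      have h4 : σ ≤ dist y b := ge_of_tendsto (hy'.dist tendsto_const_nhds) (h3.mono fun _ h => h.2)
      refine ⟨y, (Fn y (ne hσ h4)).trans (congrArg _ (eq_of_forall_dist_le fun ε hε => ?_))⟩
      obtain ⟨δ, hδ, h5⟩ := A2 σ ε hσ hε
      refine le_of_tendsto ((hl y (ne hσ h4)).dist tendsto_const_nhds) ?_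
      filter_upwards [h3, h5, hy'.eventually (closedBall_mem_nhds y hδ)] with n a1 a2 a3
      rw [dist_comm, dist_eq_norm, ← a1.1]
      exact a2 _ _ a1.2 h4 a3
  refine ⟨Continuous.homeoOfEquivCompactToT2 (f := Equiv.ofBijective F ⟨hi, hs⟩) hc, Fb, fun σ ε hσ hε => ?_⟩
  obtain ⟨δ, hδ, h1, h2⟩ := B2 σ (ε / 3) hσ (by positivity)
  obtain ⟨t, ht, htf, hc⟩ := (isClosed_le (f := fun _ => σ) (g := fun y => dist y b) continuous_const
    (by fun_prop)).isCompact.finite_cover_balls hδ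
  have h3 : ∀ᶠ n in 𝒰, ∀ c ∈ t, dist (ψ n c) (l c) < ε / 3 := (eventually_all_finite htf).2 fun c hc =>
    (hl c (ne hσ (ht hc))).eventually (ball_mem_nhds _ (by positivity))
  filter_upwards [h1, h3] with n a1 a2 y hy
  obtain ⟨c, hct, hyc⟩ := mem_iUnion₂.1 (hc hy)
  have b1 := a1 y c hy (ht hct) (le_of_lt hyc)
  have b2 := h2 y c hy (ht hct) (le_of_lt hyc)
  have b3 := a2 c hct
  change ‖ψ n y - cx (F y)‖ ≤ ε
  rw [Fn y (ne hσ hy), cx_coe]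
  rw [← dist_eq_norm] at b1 b2 ⊢
  linarith [dist_triangle4_right (ψ n y) (l y) (ψ n c) (l c)]

end Crest.Agent.R193
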