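import Crest.Agent.R193.B.Top
import Crest.Agent.Lib.BorsukUlam.Basic

/-! R193/Q/Inv (helper79): invariance of domain in the plane (from Borsuk-Ulam); the packing argument. -/

set_option autoImplicit false
open Set Metric Filter Topology

namespace Crest.Agent.R193

theorem q_invdom {f : ℂ → ℂ} (hf : ContinuousOn f (closedBall 0 1)) (hi : InjOn f (closedBall 0 1)) :
    f '' closedBall 0 1 ∈ 𝓝 (f 0) := by
  have hK : IsCompact ((closedBall (0 : ℂ) 1 ×ˢ closedBall (0 : ℂ) 1) ∩ {p | 1 / 2 ≤ ‖p.1 - p.2‖}) :=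
    ((isCompact_closedBall _ _).prod (isCompact_closedBall _ _)).inter_right
      (isClosed_le continuous_const (by fun_prop))
  obtain ⟨p, hp, hm⟩ := hK.exists_isMinOn (f := fun p => ‖f p.1 - f p.2‖) ⟨(1, 0), by simp; norm_num⟩
    (((hf.comp continuousOn_fst fun _ h => h.1.1).sub (hf.comp continuousOn_snd fun _ h => h.1.2)).norm)
  have hm0 : 0 < ‖f p.1 - f p.2‖ := norm_pos_iff.2 (sub_ne_zero.2 fun e => by
    have := hp.2
    rw [mem_ofPred_eq, hi hp.1.1 hp.1.2 e, sub_self, norm_zero] at this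
    norm_num at this)
  refine mem_of_superset (ball_mem_nhds _ hm0) fun ζ hζ => by_contra fun hn => ?_
  set u : ℝ → ℝ := fun t => min 1 (max 0 (1 + 2 * t)) with hu
  have hu0 : ∀ t, 0 ≤ u t := fun t => le_min zero_le_one (le_max_left _ _)
  have hu1 : ∀ t, u t ≤ 1 := fun t => min_le_left _ _
  have hu2 : ∀ t, 0 ≤ t → u t = 1 := fun t ht => min_eq_left (le_max_of_le_right (by linarith))
  have hu3 : ∀ t, 1 / 2 ≤ t → u (-t) = 0 := fun t ht => by
    simp only [hu]; rw [max_eq_left (by linarith), min_eq_right zero_le_one]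
  set z : EuclideanSpace ℝ (Fin 3) → ℂ := fun x => x 0 + x 1 * Complex.I with hz
  have hz1 : ∀ x : EuclideanSpace ℝ (Fin 3), ‖x‖ = 1 → ‖z x‖ ^ 2 + x 2 ^ 2 = 1 := fun x hx => by
    have := EuclideanSpace.real_norm_sq_eq x
    rw [hx, Fin.sum_univ_three] at this
    rw [Complex.sq_norm, Complex.normSq_add_mul_I]
    linarith
  have hz2 : ∀ (x : EuclideanSpace ℝ (Fin 3)) (c : ℝ), ‖x‖ = 1 → |c| ≤ 1 → c * z x ∈ closedBall (0 : ℂ) 1 :=
    fun x c hx hc => by
      rw [mem_closedBall_zero_iff, norm_mul, Complex.norm_real]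
      exact mul_le_one₀ hc (norm_nonneg _) (by nlinarith [hz1 x hx, norm_nonneg (z x), sq_nonneg (x 2)])
  have ha : ∀ t, |u t| ≤ 1 := fun t => by rw [abs_of_nonneg (hu0 t)]; exact hu1 t
  have hb : ∀ t, |-u t| ≤ 1 := fun t => by rw [abs_neg]; exact ha t
  set G : EuclideanSpace ℝ (Fin 3) → ℂ := fun x =>
    f (u (x 2) * z x) - f ((-u (-x 2) : ℝ) * z x) - (u (x 2) - u (-x 2) : ℝ) * (ζ - f 0) with hG
  have hc : ContinuousOn G (sphere 0 1) := by
    refine ((hf.comp (Continuous.continuousOn ?_) fun x hx => hz2 x _ (by simpa using hx) (ha _)).sub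
      (hf.comp (Continuous.continuousOn ?_) fun x hx => hz2 x _ (by simpa using hx) (hb _))).sub
      (Continuous.continuousOn ?_) <;> simp only [hu, hz] <;> fun_prop
  have hodd : ∀ x, G (-x) = -G x := fun x => by
    have : z (-x) = -z x := by simp only [hz, PiLp.neg_apply]; push_cast; ring
    simp only [hG, PiLp.neg_apply, neg_neg, this]
    push_cast
    simp only [mul_neg, neg_mul, neg_neg]
    ring
  have hne : ∀ x, ‖x‖ = 1 → 0 ≤ x 2 → G x ≠ 0 := fun x hx h2 e => by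
    simp only [hG, hu2 _ h2] at e
    rcases le_total (1 / 2) (x 2) with h | h
    · simp only [hu3 _ h] at e
      refine hn ⟨_, hz2 x 1 hx (by simp), ?_⟩
      simp only [neg_zero, Complex.ofReal_zero, zero_mul, sub_zero, Complex.ofReal_one, one_mul] at e ⊢
      linear_combination e
    · have h3 : 1 / 2 ≤ ‖z x‖ := by nlinarith [hz1 x hx, norm_nonneg (z x)]
      have h4 := hm (a := (((1 : ℝ) : ℂ) * z x, (-u (-x 2) : ℝ) * z x)) ⟨⟨hz2 x 1 hx (by simp), hz2 x _ hx (hb _)⟩, by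
        rw [mem_ofPred_eq, ← sub_mul, ← Complex.ofReal_sub, norm_mul, Complex.norm_real, Real.norm_eq_abs,
          abs_of_nonneg (by linarith [hu0 (-x 2)])]
        nlinarith [hu0 (-x 2)]⟩
      simp only [mem_ofPred_eq] at h4
      rw [sub_eq_zero.1 e, norm_mul, Complex.norm_real, Real.norm_eq_abs,
        abs_of_nonneg (by linarith [hu1 (-x 2)])] at h4
      rw [mem_ball, dist_eq_norm] at hζ
      nlinarith [hu0 (-x 2), norm_nonneg (ζ - f 0)]
  obtain ⟨x, hx, h0⟩ := Crest.Agent.Lib.BorsukUlam.borsuk_ulam_odd 2 (fun x => ![(G x).re, (G x).im])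
    (continuousOn_pi.2 fun i => by
      fin_cases i
      exacts [Complex.continuous_re.comp_continuousOn hc, Complex.continuous_im.comp_continuousOn hc])
    fun x _ => by funext i; fin_cases i <;> simp [hodd]
  have h1 : G x = 0 := Complex.ext (congrFun h0 0) (congrFun h0 1)
  rcases le_total 0 (x 2) with h | h
  · exact hne x hx h h1
  · exact hne (-x) (by rwa [norm_neg]) (by simpa using h) (by rw [hodd, h1, neg_zero])

variable {Z : Type} [MetricSpace Z]

theorem q_open (hs : Nonempty (Z ≃ₜ OnePoint ℂ)) {φ : Z → ℂ} {O : Set Z} (hO : IsOpen O) (hc : ContinuousOn φ O)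
    (hi : InjOn φ O) : IsOpen (φ '' O) := by
  rw [isOpen_iff_mem_nhds]
  rintro _ ⟨y, hy, rfl⟩
  have : Nontrivial Z := hs.some.toEquiv.nontrivial
  obtain ⟨p, hp⟩ := exists_ne y
  obtain ⟨e, he⟩ := sph_chart hs p
  obtain ⟨z₀, hz₀⟩ := OnePoint.ne_infty_iff_exists.1 fun h : e y = OnePoint.infty => hp (e.injective (he.trans h.symm))
  have h1 : Continuous fun z : ℂ => e.symm z := e.symm.continuous.comp OnePoint.continuous_coe
  have h2 : e.symm z₀ = y := by rw [hz₀, e.symm_apply_apply]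
  obtain ⟨δ, hδ, h3⟩ := nhds_basis_closedBall.mem_iff.1 ((hO.preimage h1).mem_nhds (x := z₀) (by simpa [h2] using hy))
  have h4 : MapsTo (fun z : ℂ => e.symm (z₀ + δ * z : ℂ)) (closedBall 0 1) O := fun z hz => h3 (by
    rw [mem_closedBall_zero_iff] at hz
    rw [mem_closedBall, dist_eq_norm, add_sub_cancel_left, norm_mul, Complex.norm_real, Real.norm_eq_abs, abs_of_pos hδ]
    exact mul_le_of_le_one_right hδ.le hz)
  have h5 := q_invdom (f := fun z => φ (e.symm (z₀ + δ * z : ℂ)))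
    (hc.comp (h1.comp (by fun_prop)).continuousOn h4) fun z hz w hw h => by
      have := OnePoint.coe_injective (e.symm.injective (hi (h4 hz) (h4 hw) h))
      exact mul_left_cancel₀ (Complex.ofReal_ne_zero.2 hδ.ne') (add_left_cancel this)
  simp only [mul_zero, add_zero, h2] at h5
  exact mem_of_superset h5 (by rintro _ ⟨z, hz, rfl⟩; exact ⟨_, h4 hz, rfl⟩)

theorem q_pack (R η : ℝ) (hη : 0 < η) : ∃ N : ℕ, ∀ w : ℕ → ℂ, (∀ i ≤ N, ‖w i‖ ≤ R) →
    ∃ i j, i < j ∧ j ≤ N ∧ ‖w j - w i‖ < η := by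
  obtain ⟨t, -, ht, hc⟩ := (isCompact_closedBall (0 : ℂ) R).finite_cover_balls (half_pos hη)
  refine ⟨ht.toFinset.card, fun w hw => ?_⟩
  have h1 : ∀ i : Fin (ht.toFinset.card + 1), ∃ c : ht.toFinset, w i ∈ ball (c : ℂ) (η / 2) := fun i => by
    obtain ⟨c, hc', h⟩ := mem_iUnion₂.1 (hc (mem_closedBall_zero_iff.2 (hw i (Nat.lt_succ_iff.1 i.2))))
    exact ⟨⟨c, ht.mem_toFinset.2 hc'⟩, h⟩
  choose c hc using h1
  obtain ⟨i, j, hij, e⟩ := Fintype.exists_ne_map_eq_of_card_lt c (by simp)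
  have h2 : dist (w i) (w j) < η := by
    have a1 := mem_ball.1 (hc i)
    have a2 := mem_ball.1 (hc j)
    rw [e] at a1
    linarith [dist_triangle_right (w i) (w j) (c j)]
  rcases lt_or_gt_of_ne hij with h | h
  · exact ⟨i, j, h, Nat.lt_succ_iff.1 j.2, by rwa [dist_comm, dist_eq_norm] at h2⟩
  · exact ⟨j, i, h, Nat.lt_succ_iff.1 i.2, by rwa [dist_eq_norm] at h2⟩

theorem q_small (hs : Nonempty (Z ≃ₜ OnePoint ℂ)) {φ : Z → ℂ} {x₀ : Z} {ρ : ℝ} (h : QS φ (ball x₀ ρ)) {ε : ℝ}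
    (hε : 0 < ε) : ∃ t : ℝ, 0 < t ∧ ∀ x ∈ ball x₀ (ρ / 3), ∀ y ∈ ball x₀ (ρ / 3), ∀ z ∈ ball x₀ (ρ / 3),
      dist x y ≤ t * dist x z → ‖φ x - φ y‖ ≤ ε * ‖φ x - φ z‖ := by
  obtain ⟨H₁, p1, h1⟩ := h.big 1 one_pos
  obtain ⟨H₂, p2, h2⟩ := h.big 2 two_pos
  obtain ⟨N, hN⟩ := q_pack H₁ (ε / (H₁ * H₂)) (by positivity)
  refine ⟨1 / 2 ^ N, by positivity, fun x hx y hy z hz hd => le_of_not_gt fun hlt => ?_⟩
  have hρ : 0 < ρ / 3 := pos_of_mem_ball hx
  have sub : ball x₀ (ρ / 3) ⊆ ball x₀ ρ := ball_subset_ball (by linarith)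
  have hl : 0 < ‖φ x - φ z‖ := norm_pos_iff.2 (sub_ne_zero.2 fun e => by
    rw [← h.inj (sub hx) (sub hz) e, dist_self, mul_zero, dist_le_zero] at hd
    rw [← hd, e] at hlt
    simp at hlt)
  have hd0 := dist_nonneg (x := x) (y := y)
  have h3 : ∀ i ≤ N, 2 ^ i * dist x y ≤ dist x z := fun i hi => by
    rw [one_div, le_inv_mul_iff₀ (by positivity)] at hd
    exact (mul_le_mul_of_nonneg_right (pow_le_pow_right₀ one_le_two hi) hd0).trans hd
  have h4 : ∀ i, ∃ v, i ≤ N → dist x v = 2 ^ i * dist x y := fun i => by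
    by_cases hi : i ≤ N
    · exact (sph_dist_ivt hs x z (by positivity) (h3 i hi)).imp fun _ h _ => h
    · exact ⟨x, fun h => (hi h).elim⟩
  choose v hv using h4
  have h5 : ∀ i ≤ N, v i ∈ ball x₀ ρ := fun i hi => by
    have := dist_triangle_right x z x₀
    have := dist_triangle_left (v i) x₀ x
    rw [mem_ball] at hx hz ⊢
    linarith [hv i hi, h3 i hi]
  obtain ⟨i, j, hij, hj, h6⟩ := hN (fun i => (φ x - φ (v i)) / (‖φ x - φ z‖ : ℝ)) fun i hi => by
    rw [norm_div, Complex.norm_real, norm_norm, div_le_iff₀ hl]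
    exact h1 x (sub hx) _ (h5 i hi) z (sub hz) (by rw [hv i hi, one_mul]; exact h3 i hi)
  have hi := hij.le.trans hj
  rw [← sub_div, norm_div, Complex.norm_real, norm_norm, div_lt_div_iff₀ hl (by positivity), sub_sub_sub_cancel_left,
    norm_sub_rev] at h6
  have h7 := h1 x (sub hx) y (sub hy) _ (h5 j hj) (by
    rw [hv j hj, one_mul]; exact le_mul_of_one_le_left hd0 (one_le_pow₀ one_le_two))
  have h8 := h2 _ (h5 j hj) x (sub hx) _ (h5 i hi) (by
    have a1 := dist_triangle_right x (v j) (v i)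
    have a2 : 2 * 2 ^ i * dist x y ≤ 2 ^ j * dist x y :=
      mul_le_mul_of_nonneg_right (by rw [← pow_succ']; exact pow_le_pow_right₀ one_le_two hij) hd0
    rw [dist_comm (v j) x]
    linarith [hv i hi, hv j hj])
  rw [norm_sub_rev] at h8
  nlinarith [mul_le_mul_of_nonneg_left h8 p1.le]

end Crest.Agent.R193
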