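import Crest.Agent.R193.B.Cov
import Crest.Agent.R193.Q.Inv
import Crest.Agent.R193.Q.Abs

/-!
# R193/Q/Main: quasisymmetric charts, zooming.  Blueprint: notes193/R193.md.  The statements below are FROZEN; the block owner fills them.
-/

set_option autoImplicit false
open Set Metric Filter Topology MeasureTheory

namespace Crest.Agent.R193

variable {G : Type} [Group G] {Z : Type} [MetricSpace Z] [CompactSpace Z] [MulAction G Z]

omit [CompactSpace Z] in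
theorem QS.toQC (hs : Nonempty (Z ≃ₜ OnePoint ℂ)) {φ : Z → ℂ} {x₀ : Z} {ρ : ℝ}
    (h : QS φ (ball x₀ ρ)) : QC φ (ball x₀ (ρ / 3)) := by
  have sub : ball x₀ (ρ / 3) ⊆ ball x₀ ρ := fun x hx =>
    ball_subset_ball (by linarith [pos_of_mem_ball hx]) hx
  exact
    { cont := h.cont.mono sub
      inj := h.inj.mono sub
      big := fun t ht => (h.big t ht).imp fun H hH =>
        ⟨hH.1, fun x hx y hy z hz => hH.2 x (sub hx) y (sub hy) z (sub hz)⟩
      isOpen := isOpen_ball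
      openMap := fun O hO ho => q_open hs ho (h.cont.mono (hO.trans sub)) (h.inj.mono (hO.trans sub))
      small := fun ε hε => q_small hs h hε }

theorem zoom (H : HA G Z) {φ : Z → ℂ} {V : Set Z} (hφ : QC φ V) {x₁ : Z} (hx : x₁ ∈ V) :
    ∃ (g : ℕ → G) (lam : ℕ → ℝ) (Φ : Z ≃ₜ OnePoint ℂ), (∀ n, 0 < lam n) ∧
      Tendsto lam atTop (𝓝 0) ∧
      (∀ K : Set Z, IsCompact K → (∀ y ∈ K, Φ y ≠ OnePoint.infty) → ∀ ε : ℝ, 0 < ε →
        ∀ᶠ n in 𝒰, ∀ y ∈ K, (g n)⁻¹ • y ∈ V ∧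
          ‖(φ ((g n)⁻¹ • y) - φ x₁) / (lam n : ℂ) - cx (Φ y)‖ ≤ ε) ∧
      (∀ R ε : ℝ, 0 < ε → ∀ᶠ n in 𝒰, ∀ y ∈ V, ‖φ y - φ x₁‖ ≤ R * lam n →
        dist (g n • y) (Φ.symm (((φ y - φ x₁) / (lam n : ℂ) : ℂ) : OnePoint ℂ)) ≤ ε) := by
  obtain ⟨C, hC1, hC⟩ := H.exists_ad
  have hC0 : 0 < C := one_pos.trans_le hC1
  obtain ⟨a, ha0, ha1, ha⟩ := sph_dist_all H.sph
  obtain ⟨ρ, hρ, hV⟩ := Metric.isOpen_iff.1 hφ.isOpen x₁ hx
  set r : ℕ → ℝ := fun n => min (ρ / 2) 1 * sc n with hr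
  have r0 : ∀ n, 0 < r n := fun n => mul_pos (lt_min (half_pos hρ) one_pos) (sc_pos n)
  have r1 : ∀ n, r n ≤ min (ρ / 2) 1 := fun n => mul_le_of_le_one_right (lt_min (half_pos hρ) one_pos).le (sc_le_one n)
  have r2 : ∀ n, r n ≤ 1 := fun n => (r1 n).trans (min_le_right _ _)
  have rt : Tendsto r atTop (𝓝 0) := by simpa using tendsto_sc.const_mul (min (ρ / 2) 1)
  have rs : ∀ K c : ℝ, 0 < c → ∀ᶠ n in 𝒰, K * r n < c := fun K c hc =>
    𝒰_le ((rt.const_mul K).eventually (gt_mem_nhds (by simpa using hc)))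
  choose g hg using fun n => hC x₁ (r n) (r0 n) (r2 n)
  choose v hv using fun n => ha x₁ (a * r n) (mul_pos ha0 (r0 n)).le (mul_le_of_le_one_right ha0.le (r2 n))
  have v1 : ∀ n, dist x₁ (v n) ≤ r n := fun n => (hv n).trans_le (mul_le_of_le_one_left (r0 n).le ha1)
  have vV : ∀ n, v n ∈ V := fun n => hV (mem_ball'.2 (((v1 n).trans ((r1 n).trans (min_le_left _ _))).trans_lt
    (half_lt_self hρ)))
  set lam : ℕ → ℝ := fun n => ‖φ x₁ - φ (v n)‖ with hlam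
  have l0 : ∀ n, 0 < lam n := fun n => norm_pos_iff.2 (sub_ne_zero.2 fun e => by
    have := hv n
    rw [← hφ.inj hx (vV n) e, dist_self] at this
    exact (mul_pos ha0 (r0 n)).ne this)
  have hcx : ContinuousAt φ x₁ := hφ.cont.continuousAt (hφ.isOpen.mem_nhds hx)
  have lt : Tendsto lam atTop (𝓝 0) := by
    have : Tendsto v atTop (𝓝 x₁) := tendsto_iff_dist_tendsto_zero.2
      (squeeze_zero (fun _ => dist_nonneg) (fun n => (dist_comm _ _).trans_le (v1 n)) rt)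
    simpa using ((tendsto_const_nhds (x := φ x₁)).sub (hcx.tendsto.comp this)).norm
  obtain ⟨z₀, hz₀⟩ := ha x₁ a ha0.le le_rfl
  obtain ⟨b, -, hb⟩ := isCompact_univ.ultrafilter_le_nhds ((hyperfilter ℕ).map fun n => g n • z₀) (by simp)
  have hb' : ∀ σ : ℝ, 0 < σ → ∀ᶠ n in 𝒰, dist (g n • z₀) b < σ := fun σ hσ =>
    (show Tendsto (fun n => g n • z₀) 𝒰 (𝓝 b) from hb).eventually (ball_mem_nhds _ hσ)
  have nrm : ∀ n (y z : Z), ‖(φ y - φ x₁) / (lam n : ℂ) - (φ z - φ x₁) / (lam n : ℂ)‖ = ‖φ y - φ z‖ / lam n :=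
    fun n y z => by
      rw [← sub_div, sub_sub_sub_cancel_right, norm_div, Complex.norm_real, Real.norm_of_nonneg (l0 n).le]
  have nrm1 : ∀ n (y : Z), ‖(φ y - φ x₁) / (lam n : ℂ)‖ = ‖φ x₁ - φ y‖ / lam n := fun n y => by
    rw [norm_div, Complex.norm_real, Real.norm_of_nonneg (l0 n).le, norm_sub_rev]
  have F1 : ∀ σ : ℝ, 0 < σ → ∃ R : ℝ, 1 ≤ R ∧ ∀ᶠ n in 𝒰, ∀ y, σ ≤ dist y b →
      (g n)⁻¹ • y ∈ V ∧ dist ((g n)⁻¹ • y) x₁ ≤ R * r n := fun σ hσ => by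
    have hR : 0 < 1 + 4 * C / σ := by positivity
    refine ⟨1 + 4 * C / σ, le_add_of_nonneg_right (by positivity), ?_⟩
    filter_upwards [rs (1 + 4 * C / σ) a ha0, rs (1 + 4 * C / σ) ρ hρ, hb' _ (half_pos hσ)] with n a1 a2 a3 y hy
    have : dist ((g n)⁻¹ • y) x₁ ≤ (1 + 4 * C / σ) * r n := le_of_not_gt fun h => by
      have b1 := (hg n).far hC0 (r0 n) hR h.le (z := z₀) (by rw [dist_comm, hz₀]; exact a1.le)
      have b2 : 2 * C / (1 + 4 * C / σ) ≤ σ / 2 := by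
        rw [div_le_div_iff₀ hR two_pos, mul_add, mul_div_cancel₀ _ hσ.ne']
        linarith
      rw [smul_inv_smul] at b1
      linarith [dist_triangle y (g n • z₀) b]
    exact ⟨hV (this.trans_lt a2), this⟩
  have F2 : ∀ R : ℝ, 1 ≤ R → ∃ M : ℝ, 0 < M ∧ ∀ n, ∀ y ∈ V, dist y x₁ ≤ R * r n → ‖φ x₁ - φ y‖ ≤ M * lam n :=
    fun R hR => (hφ.big (R / a) (by positivity)).imp fun M hM => ⟨hM.1, fun n y hy hd => hM.2 x₁ hx y hy _ (vV n) (by
      rw [hv, ← mul_assoc, div_mul_cancel₀ _ ha0.ne', dist_comm]; exact hd)⟩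
  have A4 : ∀ M : ℝ, ∃ σ : ℝ, 0 < σ ∧ ∀ᶠ n in 𝒰, ∀ y, (g n)⁻¹ • y ∈ V →
      ‖(φ ((g n)⁻¹ • y) - φ x₁) / (lam n : ℂ)‖ ≤ M → σ ≤ dist y b := fun M => by
    obtain ⟨t, ht, h⟩ := hφ.small (1 / (2 * (|M| + 1))) (by positivity)
    have hK : 1 ≤ 1 + 1 / t := le_add_of_nonneg_right (by positivity)
    refine ⟨1 / (2 * C * (1 + 1 / t)) / 2, by positivity, ?_⟩
    filter_upwards [rs (2 * (1 + 1 / t)) a ha0, hb' (1 / (2 * C * (1 + 1 / t)) / 2) (by positivity)]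
      with n a1 a2 y hy hM
    rw [nrm1, div_le_iff₀ (l0 n)] at hM
    have b1 : dist ((g n)⁻¹ • y) x₁ ≤ (1 + 1 / t) * r n := le_of_not_gt fun h' => by
      have c1 := h x₁ hx _ (vV n) _ hy ((v1 n).trans (by
        rw [dist_comm, ← div_le_iff₀' ht, div_eq_inv_mul, ← one_div]
        linarith [r0 n]))
      rw [one_div, le_inv_mul_iff₀ (by positivity)] at c1
      nlinarith [l0 n, le_abs_self M, abs_nonneg M]
    have b2 := (hg n).sep hC0 (r0 n) hK b1 (z := z₀) (by rw [dist_comm, hz₀]; exact a1.le)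
    rw [smul_inv_smul] at b2
    linarith [dist_triangle_right y (g n • z₀) b]
  obtain ⟨Φ, hΦb, hΦ⟩ := q_lim (b := b) (ψ := fun n y => (φ ((g n)⁻¹ • y) - φ x₁) / (lam n : ℂ))
    (good := fun n y => (g n)⁻¹ • y ∈ V)
    (fun σ hσ => by
      obtain ⟨R, hR, h1⟩ := F1 σ hσ
      obtain ⟨M, -, h2⟩ := F2 R hR
      refine ⟨M, h1.mono fun n hn y hy => ⟨(hn y hy).1, ?_⟩⟩
      rw [nrm1, div_le_iff₀ (l0 n)]
      exact h2 n _ (hn y hy).1 (hn y hy).2)
    (fun σ ε hσ hε => by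
      obtain ⟨R, hR, h1⟩ := F1 σ hσ
      obtain ⟨M, hM, h2⟩ := F2 R hR
      obtain ⟨t, ht, h3⟩ := hφ.small (ε / (M + 1)) (by positivity)
      refine ⟨t * a / 2 / (C * R ^ 2), by positivity, h1.mono fun n hn y z hy hz hd => ?_⟩
      obtain ⟨y1, y2⟩ := hn y hy
      obtain ⟨z1, z2⟩ := hn z hz
      have b1 := (hg n).low hC0 (r0 n) hR y2 z2
      have hr0 := r0 n
      rw [smul_inv_smul, smul_inv_smul, div_le_iff₀ (by positivity)] at b1
      have b2 : dist ((g n)⁻¹ • y) ((g n)⁻¹ • z) ≤ t * (a * r n / 2) :=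
        b1.trans ((mul_le_mul_of_nonneg_right hd (by positivity)).trans_eq (by field_simp))
      have b3 := h2 n _ y1 y2
      have b4 : ∃ w ∈ V, a * r n / 2 ≤ dist ((g n)⁻¹ • y) w ∧ ‖φ ((g n)⁻¹ • y) - φ w‖ ≤ (M + 1) * lam n := by
        rcases le_total (a * r n / 2) (dist ((g n)⁻¹ • y) x₁) with h | h
        · exact ⟨x₁, hx, h, by rw [norm_sub_rev]; linarith [l0 n]⟩
        · refine ⟨v n, vV n, by linarith [dist_triangle_left x₁ (v n) ((g n)⁻¹ • y), hv n], ?_⟩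
          have := norm_sub_le_norm_sub_add_norm_sub (φ ((g n)⁻¹ • y)) (φ x₁) (φ (v n))
          rw [norm_sub_rev _ (φ x₁)] at this
          linarith
      obtain ⟨w, w1, w2, w3⟩ := b4
      rw [nrm, div_le_iff₀ (l0 n)]
      refine (h3 _ y1 _ z1 w w1 (b2.trans (mul_le_mul_of_nonneg_left w2 ht.le))).trans
        ((mul_le_mul_of_nonneg_left w3 (by positivity)).trans_eq (by field_simp)))
    (fun σ δ hσ hδ => by
      obtain ⟨R, hR, h1⟩ := F1 σ hσ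
      obtain ⟨M, hM, h2⟩ := hφ.big ((R + 1) * (C / δ)) (by positivity)
      refine ⟨1 / (2 * M), by positivity, h1.mono fun n hn y z hy hz hd => ?_⟩
      obtain ⟨y1, y2⟩ := hn y hy
      obtain ⟨z1, z2⟩ := hn z hz
      have b1 := (hg n).up (r0 n) ((g n)⁻¹ • y) ((g n)⁻¹ • z)
      rw [smul_inv_smul, smul_inv_smul] at b1
      have b2 : (R + 1) * r n ≤ (R + 1) * (C / δ) * dist ((g n)⁻¹ • y) ((g n)⁻¹ • z) := by
        rw [mul_assoc, div_mul_eq_mul_div]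
        refine mul_le_mul_of_nonneg_left ?_ (by positivity)
        rw [le_div_iff₀' hδ, ← le_div_iff₀ (r0 n)]
        exact hd.trans b1
      have b3 := h2 _ y1 x₁ hx _ z1 (by linarith [r0 n])
      have b4 := h2 _ y1 _ (vV n) _ z1 (by linarith [dist_triangle ((g n)⁻¹ • y) x₁ (v n), v1 n])
      have b5 := norm_sub_le_norm_sub_add_norm_sub (φ x₁) (φ ((g n)⁻¹ • y)) (φ (v n))
      rw [norm_sub_rev _ (φ ((g n)⁻¹ • y))] at b5
      rw [nrm, div_le_div_iff₀ (by positivity) (l0 n)]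
      linarith)
    A4
    (fun ζ => by
      have h1 : Tendsto (fun n => φ x₁ + lam n * ζ) atTop (𝓝 (φ x₁)) := by
        simpa using ((Complex.continuous_ofReal.tendsto' 0 0 rfl).comp lt).mul_const ζ |>.const_add (φ x₁)
      refine 𝒰_le ((h1.eventually ((hφ.openMap V le_rfl hφ.isOpen).mem_nhds ⟨x₁, hx, rfl⟩)).mono ?_)
      rintro n ⟨y, hy, e⟩
      refine ⟨g n • y, by rwa [inv_smul_smul], ?_⟩
      rw [inv_smul_smul, e, add_sub_cancel_left, mul_div_cancel_left₀ _ (Complex.ofReal_ne_zero.2 (l0 n).ne')])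
  refine ⟨g, lam, Φ, l0, lt, fun K hK hK' ε hε => ?_, fun R ε hε => ?_⟩
  · obtain ⟨σ, hσ, h⟩ := Metric.isOpen_iff.1 hK.isClosed.isOpen_compl b fun h => hK' b h hΦb
    obtain ⟨R, -, h1⟩ := F1 σ hσ
    filter_upwards [h1, hΦ σ ε hσ hε] with n a1 a2 y hy
    have : σ ≤ dist y b := le_of_not_gt fun h' => h h' hy
    exact ⟨(a1 y this).1, a2 y this⟩
  · obtain ⟨σ, hσ, h1⟩ := A4 R
    have h2 : Continuous fun z : ℂ => Φ.symm z := Φ.symm.continuous.comp OnePoint.continuous_coe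
    obtain ⟨δ, hδ, h3⟩ := Metric.uniformContinuousOn_iff_le.1
      ((isCompact_closedBall (0 : ℂ) (R + 1)).uniformContinuousOn_of_continuous h2.continuousOn) ε hε
    filter_upwards [h1, hΦ σ _ hσ (lt_min hδ one_pos)] with n a1 a2 y hy hd
    have b1 : ‖(φ y - φ x₁) / (lam n : ℂ)‖ ≤ R := by rwa [nrm1, div_le_iff₀ (l0 n), norm_sub_rev]
    have b2 := a1 (g n • y) (by rwa [inv_smul_smul]) (by rwa [inv_smul_smul])
    have b3 := a2 _ b2
    rw [inv_smul_smul] at b3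
    obtain ⟨w, hw⟩ := OnePoint.ne_infty_iff_exists.1 fun h : Φ (g n • y) = OnePoint.infty =>
      (dist_pos.1 (hσ.trans_le b2)) (Φ.injective (h.trans hΦb.symm))
    rw [← hw, cx_coe, norm_sub_rev] at b3
    have b4 := h3 w (mem_closedBall_zero_iff.2 (by
      linarith [norm_le_norm_add_norm_sub' w ((φ y - φ x₁) / (lam n : ℂ)), min_le_right δ 1])) _
      (mem_closedBall_zero_iff.2 (b1.trans (le_add_of_nonneg_right zero_le_one)))
      (by rw [dist_eq_norm]; exact b3.trans (min_le_left _ _))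
    rwa [hw, Φ.symm_apply_apply] at b4

end Crest.Agent.R193
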